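import Mathlib

/-!
A scheduling argument.  Jobs are pairs `(P, y)` with `y ∈ A P`, released at time `P + 1`.
At every time a set of pending jobs is chosen greedily, newest jobs first, so that the chosen
vertices are distinct and pairwise non-adjacent.  If there is no path `W` with `W.length ≤ b`
from `A Q` to `A (Q + W.length)`, then no job waits `b` steps, and this bounds `∑ |A P|`.
-/

namespace Vale.Agent.Lib.P048S

open Finset

variable {V : Type*}

/-- Greedy selection in a symmetric conflict relation, highest rank first. -/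
lemma exists_greedy {α : Type*} (conf : α → α → Prop)
    (hsymm : ∀ x y, conf x y → conf y x) (ρ : α → ℕ) (S : Finset α) :
    ∃ I, I ⊆ S ∧ (∀ x ∈ I, ∀ y ∈ I, x ≠ y → ¬ conf x y) ∧
      ∀ z ∈ S, z ∉ I → ∃ x ∈ I, conf x z ∧ ρ z ≤ ρ x := by
  classical
  induction hn : S.card using Nat.strong_induction_on generalizing S with
  | _ n ih =>
    rcases S.eq_empty_or_nonempty with rfl | hne
    · exact ⟨∅, by simp, by simp, by simp⟩
    obtain ⟨x0, hx0, hmax⟩ := S.exists_max_image ρ hne
    set S' := S.filter (fun z => z ≠ x0 ∧ ¬ conf x0 z) with hS'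
    have hlt : S'.card < S.card := by
      apply Finset.card_lt_card
      refine ⟨Finset.filter_subset _ _, fun h => ?_⟩
      have := h hx0
      simp [hS'] at this
    obtain ⟨I, hIS, hind, hcov⟩ := ih S'.card (hn ▸ hlt) S' rfl
    have hIS2 : I ⊆ S := hIS.trans (Finset.filter_subset _ _)
    refine ⟨insert x0 I, ?_, ?_, ?_⟩
    · intro z hz
      rcases Finset.mem_insert.1 hz with rfl | h
      · exact hx0
      · exact hIS2 h
    · intro x hx y hy hxy
      rcases Finset.mem_insert.1 hx with rfl | hx'
      · rcases Finset.mem_insert.1 hy with rfl | hy'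
        · exact absurd rfl hxy
        · exact (Finset.mem_filter.1 (hIS hy')).2.2
      · rcases Finset.mem_insert.1 hy with rfl | hy'
        · intro h
          exact (Finset.mem_filter.1 (hIS hx')).2.2 (hsymm _ _ h)
        · exact hind x hx' y hy' hxy
    · intro z hz hzI
      by_cases hc : conf x0 z
      · exact ⟨x0, Finset.mem_insert_self _ _, hc, hmax z hz⟩
      · have hz0 : z ≠ x0 := fun h => hzI (h ▸ Finset.mem_insert_self _ _)
        have hzS' : z ∈ S' := Finset.mem_filter.2 ⟨hz, hz0, hc⟩
        have hzI' : z ∉ I := fun h => hzI (Finset.mem_insert_of_mem h)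
        obtain ⟨x, hx, h1, h2⟩ := hcov z hzS' hzI'
        exact ⟨x, Finset.mem_insert_of_mem hx, h1, h2⟩

section sched

variable (G : SimpleGraph V)

/-- Two jobs conflict if their vertices are equal or adjacent. -/
def Conf (J K : ℕ × V) : Prop := J.2 = K.2 ∨ G.Adj J.2 K.2

lemma conf_symm (J K : ℕ × V) (h : Conf G J K) : Conf G K J := by
  rcases h with h | h
  · exact Or.inl h.symm
  · exact Or.inr h.symm

/-- The greedy choice among jobs. -/
noncomputable def pick (S : Finset (ℕ × V)) : Finset (ℕ × V) :=
  Classical.choose (exists_greedy (Conf G) (conf_symm G) Prod.fst S)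

lemma pick_sub (S : Finset (ℕ × V)) : pick G S ⊆ S :=
  (Classical.choose_spec (exists_greedy (Conf G) (conf_symm G) Prod.fst S)).1

lemma pick_ind (S : Finset (ℕ × V)) :
    ∀ x ∈ pick G S, ∀ y ∈ pick G S, x ≠ y → ¬ Conf G x y :=
  (Classical.choose_spec (exists_greedy (Conf G) (conf_symm G) Prod.fst S)).2.1

lemma pick_cov (S : Finset (ℕ × V)) :
    ∀ z ∈ S, z ∉ pick G S → ∃ x ∈ pick G S, Conf G x z ∧ z.1 ≤ x.1 :=
  (Classical.choose_spec (exists_greedy (Conf G) (conf_symm G) Prod.fst S)).2.2

variable [DecidableEq V] (A : ℕ → Finset V)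

/-- The jobs released before time `t`. -/
def rel (t : ℕ) : Finset (ℕ × V) := (range t).biUnion fun P => (A P).image (Prod.mk P)

lemma mem_rel {t : ℕ} {J : ℕ × V} : J ∈ rel A t ↔ J.1 < t ∧ J.2 ∈ A J.1 := by
  obtain ⟨P, y⟩ := J
  simp only [rel, Finset.mem_biUnion, Finset.mem_range, Finset.mem_image, Prod.mk.injEq]
  constructor
  · rintro ⟨Q, hQ, z, hz, rfl, rfl⟩
    exact ⟨hQ, hz⟩
  · rintro ⟨h1, h2⟩
    exact ⟨P, h1, y, h2, rfl, rfl⟩

lemma card_rel (t : ℕ) : (rel A t).card = ∑ P ∈ range t, (A P).card := by
  rw [rel, Finset.card_biUnion]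
  · apply Finset.sum_congr rfl
    intro P _
    exact Finset.card_image_of_injective _ (Prod.mk_right_injective P)
  · intro P _ Q _ hPQ
    simp only [Function.onFun]
    rw [Finset.disjoint_left]
    intro J h1 h2
    obtain ⟨y, -, rfl⟩ := Finset.mem_image.1 h1
    obtain ⟨z, -, hz⟩ := Finset.mem_image.1 h2
    exact hPQ (congrArg Prod.fst hz).symm

/-- The jobs done by time `t`. -/
noncomputable def done : ℕ → Finset (ℕ × V)
  | 0 => ∅
  | t + 1 => done t ∪ pick G (rel A (t + 1) \ done t)

lemma done_mono {s t : ℕ} (h : s ≤ t) : done G A s ⊆ done G A t := by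
  induction h with
  | refl => exact Finset.Subset.refl _
  | step _ ih => exact ih.trans Finset.subset_union_left

lemma done_sub_rel (t : ℕ) : done G A t ⊆ rel A t := by
  induction t with
  | zero => simp [done]
  | succ t ih =>
    intro J hJ
    rcases Finset.mem_union.1 hJ with h | h
    · have := (mem_rel A).1 (ih h)
      exact (mem_rel A).2 ⟨by omega, this.2⟩
    · exact (Finset.mem_sdiff.1 (pick_sub G _ h)).1

/-- The statement that a job `J` pending at time `c + 1` has a certificate path. -/
def Chain (D : Finset V) (c : ℕ) (J : ℕ × V) : Prop :=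
  ∃ (W : List V) (Q : ℕ), W ≠ [] ∧ W.IsChain G.Adj ∧ W.Nodup ∧ (∀ w ∈ W, w ∈ D) ∧ J.1 ≤ Q ∧
    Q + W.length = c + 1 ∧ (∀ x ∈ W.head?, x ∈ A Q) ∧ W.getLast? = some J.2 ∧
    ∀ w ∈ W, w = J.2 ∨ ∃ P', J.1 ≤ P' ∧ (P', w) ∈ done G A c

variable {G A} {D : Finset V} {a b : ℕ}

/-- No job waits too long, and every pending job has a certificate path. -/
theorem chain_main (hb : 1 ≤ b) (hA : ∀ P, A P ⊆ D) (hper : ∀ P, A (P + b) = A P)
    (H : ∀ (Q : ℕ) (W : List V), W ≠ [] → W.IsChain G.Adj → W.Nodup → (∀ w ∈ W, w ∈ D) →
      W.length ≤ b → (∀ x ∈ W.head?, x ∈ A Q) → (∀ z ∈ W.getLast?, z ∈ A (Q + W.length)) → False)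
    (c : ℕ) :
    ∀ J : ℕ × V, J.1 ≤ c → J.2 ∈ A J.1 → J ∉ done G A c →
      Chain G A D c J ∧ c + 1 < J.1 + b := by
  induction c using Nat.strong_induction_on with
  | _ c ih =>
    intro J hJc hJA hJd
    obtain ⟨P, y⟩ := J
    simp only at hJc hJA
    have hyD : y ∈ D := hA P hJA
    have hchain : Chain G A D c (P, y) := by
      by_cases hPc : P = c
      · subst hPc
        refine ⟨[y], P, by simp, by simp, by simp, ?_, le_refl _, by simp, ?_, rfl, ?_⟩
        · intro w hw
          rw [List.mem_singleton.1 hw]
          exact hyD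
        · intro x hx
          have : x = y := by simpa using hx.symm
          rw [this]
          exact hJA
        · intro w hw
          exact Or.inl (List.mem_singleton.1 hw)
      · obtain ⟨c', rfl⟩ : ∃ c', c = c' + 1 := ⟨c - 1, by omega⟩
        have hJd' : (P, y) ∉ done G A c' := fun h => hJd (done_mono G A (by omega) h)
        have hJS : (P, y) ∈ rel A (c' + 1) \ done G A c' :=
          Finset.mem_sdiff.2 ⟨(mem_rel A).2 ⟨by simp only; omega, hJA⟩, hJd'⟩
        have hJp : (P, y) ∉ pick G (rel A (c' + 1) \ done G A c') := fun h =>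
          hJd (Finset.mem_union_right _ h)
        obtain ⟨B, hBp, hconf, hle⟩ := pick_cov G _ _ hJS hJp
        simp only at hle
        have hBS := pick_sub G _ hBp
        have hBrel := (mem_rel A).1 (Finset.mem_sdiff.1 hBS).1
        have hBd := (Finset.mem_sdiff.1 hBS).2
        obtain ⟨hch', -⟩ := ih c' (by omega) B (by omega) hBrel.2 hBd
        obtain ⟨W', Q', hne, hch, hnd, hWD, hBQ, hlen, hhead, hlast, hjobs⟩ := hch'
        have hBdone : B ∈ done G A (c' + 1) := Finset.mem_union_right _ hBp
        by_cases hyW : y ∈ W'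
        · exfalso
          -- the same vertex has been done at a later position
          obtain ⟨Pj, hPj, hPjd⟩ : ∃ Pj, P ≤ Pj ∧ (Pj, y) ∈ done G A (c' + 1) := by
            rcases hjobs y hyW with h | ⟨P', h1, h2⟩
            · refine ⟨B.1, hle, ?_⟩
              have : (B.1, y) = B := by
                rw [h]
              rw [this]
              exact hBdone
            · exact ⟨P', by omega, done_mono G A (by omega) h2⟩
          have hne' : Pj ≠ P := by
            rintro rfl
            exact hJd hPjd
          have hrel := (mem_rel A).1 (done_sub_rel G A _ hPjd)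
          simp only at hrel
          obtain ⟨c2, hc2⟩ : ∃ c2, Pj = c2 + 1 := ⟨Pj - 1, by omega⟩
          have hnot : (P, y) ∉ done G A c2 := fun h => hJd (done_mono G A (by omega) h)
          obtain ⟨hch2, hlev⟩ := ih c2 (by omega) (P, y) (by simp only; omega) hJA hnot
          simp only at hlev
          obtain ⟨W2, Q2, hne2, hchn2, hnd2, hWD2, hPQ2, hlen2, hhead2, hlast2, -⟩ := hch2
          simp only at hPQ2 hlast2
          refine H Q2 W2 hne2 hchn2 hnd2 hWD2 (by omega) hhead2 ?_
          intro z hz
          have hz' : z = y := by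
            rw [hlast2] at hz
            simpa using hz.symm
          have : Q2 + W2.length = Pj := by omega
          rw [this, hz']
          exact hrel.2
        · have hBy : G.Adj B.2 y := by
            rcases hconf with h | h
            · exfalso
              apply hyW
              have hBW : B.2 ∈ W' := List.mem_of_getLast? hlast
              simp only at h
              rw [← h]
              exact hBW
            · exact h
          refine ⟨W' ++ [y], Q', by simp, ?_, ?_, ?_, by simp only; omega, ?_, ?_, ?_, ?_⟩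
          · rw [List.isChain_append]
            refine ⟨hch, by simp, ?_⟩
            intro x hx z hz
            have hx' : x = B.2 := by
              rw [hlast] at hx
              simpa using hx.symm
            have hz' : z = y := by simpa using hz.symm
            rw [hx', hz']
            exact hBy
          · rw [List.nodup_append]
            refine ⟨hnd, by simp, ?_⟩
            intro u hu v hv huv
            have hv' : v = y := by simpa using hv
            subst hv'
            exact hyW (huv ▸ hu)
          · intro w hw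
            rcases List.mem_append.1 hw with h | h
            · exact hWD w h
            · rw [List.mem_singleton.1 h]
              exact hyD
          · simp only [List.length_append, List.length_singleton]
            omega
          · intro x hx
            rw [List.head?_append] at hx
            have : W'.head?.isSome := by
              cases W' with
              | nil => exact absurd rfl hne
              | cons a l => rfl
            obtain ⟨h0, hh0⟩ := Option.isSome_iff_exists.1 this
            rw [hh0] at hx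
            simp only [Option.some_or] at hx
            apply hhead
            rw [hh0]
            exact hx
          · simp
          · intro w hw
            rcases List.mem_append.1 hw with h | h
            · right
              rcases hjobs w h with h1 | ⟨P', h2, h3⟩
              · refine ⟨B.1, hle, ?_⟩
                have : (B.1, w) = B := by
                  rw [h1]
                rw [this]
                exact hBdone
              · exact ⟨P', by simp only; omega, done_mono G A (by omega) h3⟩
            · left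
              exact List.mem_singleton.1 h
    refine ⟨hchain, ?_⟩
    simp only
    by_contra hlevel
    -- look at the time `P + b - 1`
    obtain ⟨c3, hc3⟩ : ∃ c3, P + b = c3 + 1 := ⟨P + b - 1, by omega⟩
    have hc3c : c3 ≤ c := by omega
    have hnot : (P, y) ∉ done G A c3 := fun h => hJd (done_mono G A hc3c h)
    have hch3 : Chain G A D c3 (P, y) := by
      rcases Nat.lt_or_ge c3 c with h | h
      · exact (ih c3 h (P, y) (by simp only; omega) hJA hnot).1
      · have : c3 = c := by omega
        rw [this]
        exact hchain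
    obtain ⟨W3, Q3, hne3, hchn3, hnd3, hWD3, hPQ3, hlen3, hhead3, hlast3, -⟩ := hch3
    simp only at hPQ3 hlast3
    refine H Q3 W3 hne3 hchn3 hnd3 hWD3 (by omega) hhead3 ?_
    intro z hz
    have hz' : z = y := by
      rw [hlast3] at hz
      simpa using hz.symm
    have : Q3 + W3.length = P + b := by omega
    rw [this, hper, hz']
    exact hJA

/-- Every job is done by time `P + b`. -/
theorem job_done (hb : 1 ≤ b) (hA : ∀ P, A P ⊆ D) (hper : ∀ P, A (P + b) = A P)
    (H : ∀ (Q : ℕ) (W : List V), W ≠ [] → W.IsChain G.Adj → W.Nodup → (∀ w ∈ W, w ∈ D) →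
      W.length ≤ b → (∀ x ∈ W.head?, x ∈ A Q) → (∀ z ∈ W.getLast?, z ∈ A (Q + W.length)) → False)
    (J : ℕ × V) (hJ : J.2 ∈ A J.1) : J ∈ done G A (J.1 + b) := by
  by_contra hcon
  have := (chain_main (G := G) hb hA hper H (J.1 + b) J (by omega) hJ hcon).2
  omega

/-- A job pending at time `c + 1` has its vertex outside `A (c + 1)`. -/
theorem not_mem_now (hb : 1 ≤ b) (hA : ∀ P, A P ⊆ D) (hper : ∀ P, A (P + b) = A P)
    (H : ∀ (Q : ℕ) (W : List V), W ≠ [] → W.IsChain G.Adj → W.Nodup → (∀ w ∈ W, w ∈ D) →
      W.length ≤ b → (∀ x ∈ W.head?, x ∈ A Q) → (∀ z ∈ W.getLast?, z ∈ A (Q + W.length)) → False)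
    (c : ℕ) (J : ℕ × V) (h1 : J.1 ≤ c) (h2 : J.2 ∈ A J.1) (h3 : J ∉ done G A c) :
    J.2 ∉ A (c + 1) := by
  intro hmem
  obtain ⟨hch, hlev⟩ := chain_main (G := G) hb hA hper H c J h1 h2 h3
  obtain ⟨W, Q, hne, hchn, hnd, hWD, hPQ, hlen, hhead, hlast, -⟩ := hch
  refine H Q W hne hchn hnd hWD (by omega) hhead ?_
  intro z hz
  have hz' : z = J.2 := by
    rw [hlast] at hz
    simpa using hz.symm
  rw [hlen, hz']
  exact hmem

/-- The number of jobs chosen at one time is at most `a`, where `a` bounds the independent
subsets of `D` that avoid `A t`. -/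
lemma card_pick_le (hA : ∀ P, A P ⊆ D) (t : ℕ)
    (hα : ∀ I : Finset V, I ⊆ D → G.IsIndepSet (I : Set V) → (∀ y ∈ I, y ∉ A t) → I.card ≤ a)
    (S : Finset (ℕ × V)) (hS : S ⊆ rel A t) (hav : ∀ J ∈ pick G S, J.2 ∉ A t) :
    (pick G S).card ≤ a := by
  have hinj : Set.InjOn Prod.snd (pick G S : Set (ℕ × V)) := by
    intro J hJ K hK hJK
    by_contra hne
    exact pick_ind G S J hJ K hK hne (Or.inl hJK)
  rw [← Finset.card_image_of_injOn hinj]
  apply hα
  · intro y hy
    obtain ⟨J, hJ, rfl⟩ := Finset.mem_image.1 hy
    exact hA _ ((mem_rel A).1 (hS (pick_sub G S hJ))).2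
  · intro x hx y hy hxy
    simp only [Finset.coe_image, Set.mem_image, Finset.mem_coe] at hx hy
    obtain ⟨J, hJ, rfl⟩ := hx
    obtain ⟨K, hK, rfl⟩ := hy
    have hne : J ≠ K := fun h => hxy (by rw [h])
    intro hadj
    exact pick_ind G S J hJ K hK hne (Or.inr hadj)
  · intro y hy
    obtain ⟨J, hJ, rfl⟩ := Finset.mem_image.1 hy
    exact hav J hJ

lemma card_done_le (hb : 1 ≤ b) (hA : ∀ P, A P ⊆ D) (hper : ∀ P, A (P + b) = A P)
    (H : ∀ (Q : ℕ) (W : List V), W ≠ [] → W.IsChain G.Adj → W.Nodup → (∀ w ∈ W, w ∈ D) →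
      W.length ≤ b → (∀ x ∈ W.head?, x ∈ A Q) → (∀ z ∈ W.getLast?, z ∈ A (Q + W.length)) → False)
    (hα : ∀ (t : ℕ) (I : Finset V), I ⊆ D → G.IsIndepSet (I : Set V) → (∀ y ∈ I, y ∉ A t) →
      I.card ≤ a) (t : ℕ) :
    (done G A t).card ≤ a * t := by
  induction t with
  | zero => simp [done]
  | succ t ih =>
    have h1 : (done G A (t + 1)).card ≤ (done G A t).card
        + (pick G (rel A (t + 1) \ done G A t)).card := Finset.card_union_le _ _
    have h2 := card_pick_le (G := G) hA (t + 1) (hα (t + 1)) (rel A (t + 1) \ done G A t)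
      Finset.sdiff_subset (by
        intro J hJ
        have hJS := Finset.mem_sdiff.1 (pick_sub G _ hJ)
        have hrel := (mem_rel A).1 hJS.1
        exact not_mem_now (G := G) hb hA hper H t J (by omega) hrel.2 hJS.2)
    rw [Nat.mul_succ]
    omega

omit [DecidableEq V] in
lemma periodic_mul (hper : ∀ P, A (P + b) = A P) (k x : ℕ) : A (k * b + x) = A x := by
  induction k with
  | zero => simp
  | succ k ih =>
    have : (k + 1) * b + x = (k * b + x) + b := by ring
    rw [this, hper, ih]

lemma sum_periodic (hper : ∀ P, A (P + b) = A P) (N : ℕ) :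
    ∑ P ∈ range (N * b), (A P).card = N * ∑ P ∈ range b, (A P).card := by
  induction N with
  | zero => simp
  | succ N ih =>
    have : (N + 1) * b = N * b + b := by ring
    rw [this, Finset.sum_range_add, ih]
    have h2 : ∑ x ∈ range b, (A (N * b + x)).card = ∑ x ∈ range b, (A x).card :=
      Finset.sum_congr rfl (fun x _ => by rw [periodic_mul hper])
    rw [h2]
    ring

/-- The abstract bound: `∑ |A P| ≤ a b` over one period. -/
theorem sum_card_le (hb : 1 ≤ b) (hA : ∀ P, A P ⊆ D) (hper : ∀ P, A (P + b) = A P)
    (hα : ∀ (t : ℕ) (I : Finset V), I ⊆ D → G.IsIndepSet (I : Set V) → (∀ y ∈ I, y ∉ A t) →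
      I.card ≤ a)
    (H : ∀ (Q : ℕ) (W : List V), W ≠ [] → W.IsChain G.Adj → W.Nodup → (∀ w ∈ W, w ∈ D) →
      W.length ≤ b → (∀ x ∈ W.head?, x ∈ A Q) → (∀ z ∈ W.getLast?, z ∈ A (Q + W.length)) → False) :
    ∑ P ∈ range b, (A P).card ≤ a * b := by
  set e := ∑ P ∈ range b, (A P).card with he
  have key : ∀ N : ℕ, N * e ≤ a * ((N + 1) * b) := by
    intro N
    have hsub : rel A (N * b) ⊆ done G A ((N + 1) * b) := by
      intro J hJ
      obtain ⟨h1, h2⟩ := (mem_rel A).1 hJ
      have h3 := job_done (G := G) hb hA hper H J h2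
      refine done_mono G A ?_ h3
      have : (N + 1) * b = N * b + b := by ring
      omega
    have h4 := Finset.card_le_card hsub
    rw [card_rel, sum_periodic hper] at h4
    exact h4.trans (card_done_le (G := G) hb hA hper H hα _)
  by_contra hcon
  have h5 : a * b + 1 ≤ e := by omega
  have h6 := key (a * b + 1)
  have h7 : (a * b + 1) * (a * b + 1) ≤ (a * b + 1) * e := Nat.mul_le_mul_left _ h5
  have h8 : a * ((a * b + 1 + 1) * b) = (a * b + 1) * (a * b) + a * b := by ring
  have h9 : (a * b + 1) * (a * b + 1) = (a * b + 1) * (a * b) + (a * b + 1) := by ring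
  omega

end sched

end Vale.Agent.Lib.P048S
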