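import Vale.Agent.Lib.P048.Main
import Vale.Agent.Lib.P048S.Sched

namespace Vale.Agent.Lib.P048S

open Finset Vale.Agent.Lib.P048

variable {V : Type*}

/-- The bound on the number of edges between a cycle and the outside: `e(C, D) ≤ a b`, where `a`
bounds the independent subsets of `D` that avoid the neighbours of one cycle vertex. -/
theorem lemmaE_sharp {G : SimpleGraph V} {b : ℕ} {u : ZMod b → V} {D : Finset V} [NeZero b]
    (S : Setup G u D) {a : ℕ}
    (hα : ∀ (q : ZMod b) (I : Finset V), I ⊆ D → G.IsIndepSet (I : Set V) →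
      (∀ y ∈ I, y ∉ RR G u D q) → I.card ≤ a) :
    ∑ q : ZMod b, (RR G u D q).card ≤ a * b := by
  classical
  have hb3 := S.hb
  set A : ℕ → Finset V := fun P => RR G u D (P : ZMod b) with hAdef
  have hA : ∀ P, A P ⊆ D := fun P y hy => (mem_RR.1 hy).1
  have hper : ∀ P, A (P + b) = A P := by
    intro P
    simp only [hAdef]
    congr 1
    push_cast
    simp
  have H : ∀ (Q : ℕ) (W : List V), W ≠ [] → W.IsChain G.Adj → W.Nodup → (∀ w ∈ W, w ∈ D) →
      W.length ≤ b → (∀ x ∈ W.head?, x ∈ A Q) → (∀ z ∈ W.getLast?, z ∈ A (Q + W.length)) → False := by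
    intro Q W hne hch hnd hWD hlen hhead hlast
    have hs1 : 1 ≤ W.length := List.length_pos_iff.2 hne
    have hcyc := surgery (G := G) u S.inj S.adj (Q : ZMod b) hs1 hlen W hne hch hnd
      (fun y hy i => S.disj y (hWD y hy) i)
      (fun y hy => (mem_RR.1 (hhead y hy)).2)
      (fun y hy => by
        have h := (mem_RR.1 (hlast y hy)).2
        have e : (((Q + W.length : ℕ)) : ZMod b) = (Q : ZMod b) + (W.length : ZMod b) := by
          push_cast
          rfl
        rw [e] at h
        exact h.symm)
      (by omega)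
    refine S.no _ hcyc ?_ ?_
    · simp only [List.length_append, length_arc]
      omega
    · intro x hx
      rcases vertices_surgery u hx with h | h
      · exact Or.inl h
      · exact Or.inr (hWD x h)
  have h1 := sum_card_le (G := G) (A := A) (D := D) (a := a) (b := b) (by omega) hA hper
    (fun t I hI hind hav => hα (t : ZMod b) I hI hind hav) H
  have h2 : ∑ P ∈ range b, (A P).card = ∑ q : ZMod b, (RR G u D q).card := by
    apply Finset.sum_nbij' (fun P : ℕ => (P : ZMod b)) (fun q : ZMod b => q.val)
    · intro P _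
      exact Finset.mem_univ _
    · intro q _
      exact Finset.mem_range.2 (ZMod.val_lt q)
    · intro P hP
      exact ZMod.val_natCast_of_lt (Finset.mem_range.1 hP)
    · intro q _
      exact ZMod.natCast_zmod_val q
    · intro P _
      rfl
  rw [← h2]
  exact h1

/-- The induction step in the range `m ≥ 2a`, `m ≥ 4`. -/
theorem step_two {G : SimpleGraph V} {m a : ℕ} (ha : 1 ≤ a) (hm : 2 * a ≤ m) (hm4 : 4 ≤ m)
    (hC : ∀ l, IsCyc G l → l.length = m → False)
    (IH : ∀ a' < a, ∀ Y : Finset V, Bound G Y a' → Y.card ≤ (m - 1) * a')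
    (X : Finset V) (hX : Bound G X a) (hcard : (m - 1) * a + 1 ≤ X.card) : False := by
  classical
  -- degree bound
  have hdeg : ∀ v ∈ X, m - 1 ≤ (X.filter (G.Adj v)).card := by
    intro v hv
    set Y := (X.filter (fun y => y ≠ v ∧ ¬ G.Adj v y)) with hY
    have hYb : Bound G Y (a - 1) := by
      intro I hI hIind
      have hind := indep_union hIind (indep_singleton v) (by
        intro x hx y hy
        rw [Finset.mem_singleton.1 hy]
        intro h
        exact (Finset.mem_filter.1 (hI hx)).2.2 h.symm)
      have h1 := hX _ (by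
        intro y hy
        rcases Finset.mem_union.1 hy with h | h
        · exact (Finset.mem_filter.1 (hI h)).1
        · rw [Finset.mem_singleton.1 h]
          exact hv) hind
      rw [Finset.card_union_of_disjoint (by
        rw [Finset.disjoint_left]
        intro y hy hy2
        rw [Finset.mem_singleton.1 hy2] at hy
        exact (Finset.mem_filter.1 (hI hy)).2.1 rfl), Finset.card_singleton] at h1
      omega
    have hYc := IH (a - 1) (by omega) Y hYb
    have hsub : X ⊆ insert v (X.filter (G.Adj v) ∪ Y) := by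
      intro y hy
      by_cases h1 : y = v
      · exact Finset.mem_insert.2 (Or.inl h1)
      · apply Finset.mem_insert_of_mem
        by_cases h2 : G.Adj v y
        · exact Finset.mem_union_left _ (Finset.mem_filter.2 ⟨hy, h2⟩)
        · exact Finset.mem_union_right _ (Finset.mem_filter.2 ⟨hy, h1, h2⟩)
    have h3 := Finset.card_le_card hsub
    have h4 := Finset.card_insert_le v (X.filter (G.Adj v) ∪ Y)
    have h5 := Finset.card_union_le (X.filter (G.Adj v)) Y
    have hsplit : (m - 1) * a = (m - 1) * (a - 1) + (m - 1) := by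
      obtain ⟨a', rfl⟩ : ∃ a', a = a' + 1 := ⟨a - 1, by omega⟩
      simp
      ring
    omega
  -- a triangle
  obtain ⟨v, hv⟩ : X.Nonempty := by
    apply Finset.card_pos.1
    omega
  have htri : ∃ l, IsCyc G l ∧ l.length = 3 ∧ ∀ x ∈ l, x ∈ X := by
    have hnot : ¬ G.IsIndepSet ((X.filter (G.Adj v) : Finset V) : Set V) := by
      intro hind
      have h1 := hX _ (Finset.filter_subset _ _) hind
      have h2 := hdeg v hv
      omega
    unfold SimpleGraph.IsIndepSet Set.Pairwise at hnot
    push Not at hnot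
    obtain ⟨y, hy, z, hz, hne, hadj⟩ := hnot
    simp only [Finset.coe_filter, Set.mem_ofPred_eq] at hy hz
    refine ⟨[v, y, z], ⟨by simp, ?_, ?_, ?_⟩, by simp, ?_⟩
    · simp only [List.nodup_cons, List.mem_cons, List.not_mem_nil, or_false, not_or,
        List.nodup_nil, and_true, not_false_eq_true]
      exact ⟨⟨hy.2.ne, hz.2.ne⟩, hne⟩
    · simp [hy.2, hadj]
    · intro a' ha' c' hc'
      have h1 : a' = z := by simpa using ha'.symm
      have h2 : c' = v := by simpa using hc'.symm
      rw [h1, h2]
      exact hz.2.symm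
    · intro x hx
      simp only [List.mem_cons, List.not_mem_nil, or_false] at hx
      rcases hx with rfl | rfl | rfl
      · exact hv
      · exact hy.1
      · exact hz.1
  -- the largest cycle length below `m`
  set PP : ℕ → Prop := fun k => ∃ l, IsCyc G l ∧ l.length = k ∧ ∀ x ∈ l, x ∈ X with hPP
  set b := Nat.findGreatest PP (m - 1) with hbdef
  have hPb : PP b := Nat.findGreatest_spec (m := 3) (by omega) htri
  have hbm : b ≤ m - 1 := Nat.findGreatest_le _
  have hbig : ∀ k, b < k → k ≤ m - 1 → ¬ PP k := fun k h1 h2 => Nat.findGreatest_is_greatest h1 h2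
  obtain ⟨l, hl, hlb, hlX⟩ := hPb
  have hb3 : 3 ≤ b := hlb ▸ hl.1
  have : NeZero b := ⟨by omega⟩
  obtain ⟨u, hinj, hadj, hul⟩ := exists_param hl hlb
  have hCX : ∀ i, u i ∈ X := fun i => hlX _ (hul i)
  set C := Finset.univ.image u with hCdef
  set D := X \ C with hDdef
  have hCcard : C.card = b := by
    rw [hCdef, Finset.card_image_of_injective _ hinj, Finset.card_univ, ZMod.card]
  have hCsub : C ⊆ X := by
    intro y hy
    obtain ⟨i, -, rfl⟩ := Finset.mem_image.1 hy
    exact hCX i
  have hDX : D ⊆ X := Finset.sdiff_subset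
  have hDcard : D.card = X.card - b := by
    rw [hDdef, Finset.card_sdiff_of_subset hCsub, hCcard]
  have hvert : ∀ x, ((∃ i, x = u i) ∨ x ∈ D) → x ∈ X := by
    rintro x (⟨i, rfl⟩ | h)
    · exact hCX i
    · exact hDX h
  have noCyc : ∀ k, b < k → k ≤ m → ∀ l, IsCyc G l → l.length = k →
      (∀ x ∈ l, (∃ i, x = u i) ∨ x ∈ D) → False := by
    intro k hk1 hk2 l' hl' hl'k hl'v
    by_cases hkm : k = m
    · exact hC l' hl' (hl'k.trans hkm)
    · exact hbig k hk1 (by omega) ⟨l', hl', hl'k, fun x hx => hvert x (hl'v x hx)⟩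
  have S : Setup G u D := ⟨hb3, hinj, hadj, by
    intro y hy i h
    subst h
    exact (Finset.mem_sdiff.1 hy).2 (Finset.mem_image_of_mem _ (Finset.mem_univ _)),
    fun l' h1 h2 h3 => noCyc (b + 1) (by omega) (by omega) l' h1 h2 h3⟩
  have hsplit : (m - 1) * a = (m - 1) * (a - 1) + (m - 1) := by
    obtain ⟨a', rfl⟩ : ∃ a', a = a' + 1 := ⟨a - 1, by omega⟩
    simp
    ring
  have hnb : ¬ Bound G D (a - 1) := by
    intro h
    have := IH (a - 1) (by omega) D h
    omega
  have hst := star (a := a) (X := X) S (by omega) IH hX hcard hCX hDX (by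
    intro y hy hyD
    have : y ∈ C := by
      by_contra h
      exact hyD (Finset.mem_sdiff.2 ⟨hy, h⟩)
    obtain ⟨i, -, rfl⟩ := Finset.mem_image.1 this
    exact ⟨i, rfl⟩) hnb ha
  have hαD : ∀ (q : ZMod b) (I : Finset V), I ⊆ D → G.IsIndepSet (I : Set V) →
      (∀ y ∈ I, y ∉ RR G u D q) → I.card ≤ a - 1 := by
    intro q I hI hind hav
    have huI : u q ∉ I := fun h => S.disj _ (hI h) q rfl
    have hind2 : G.IsIndepSet ((insert (u q) I : Finset V) : Set V) := by
      have := indep_union (indep_singleton (u q)) hind (by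
        intro x hx y hy hadj
        rw [Finset.mem_singleton.1 hx] at hadj
        exact hav y hy (mem_RR.2 ⟨hI hy, hadj⟩))
      rwa [← Finset.insert_eq] at this
    have h1 := hX _ (by
      intro y hy
      rcases Finset.mem_insert.1 hy with rfl | h
      · exact hCX q
      · exact hDX (hI h)) hind2
    rw [Finset.card_insert_of_notMem huI] at h1
    omega
  have hE := lemmaE_sharp S hαD
  obtain ⟨a', rfl⟩ : ∃ a', a = a' + 1 := ⟨a - 1, by omega⟩
  simp only [Nat.add_sub_cancel] at hE hst hm hsplit
  have h2 : (2 * a' + 1) * b ≤ (m - 1) * b := Nat.mul_le_mul_right _ (by omega)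
  have h3 : (2 * a' + 1) * b = a' * b + (a' + 1) * b := by ring
  omega

/-- The bound by strong induction on `a`. -/
theorem main_bound_two {G : SimpleGraph V} {m : ℕ} (hm4 : 4 ≤ m)
    (hC : ∀ l, IsCyc G l → l.length = m → False)
    (a : ℕ) (hm : 2 * a ≤ m) (X : Finset V) (hX : Bound G X a) : X.card ≤ (m - 1) * a := by
  induction a using Nat.strong_induction_on generalizing X with
  | _ a ih =>
    rcases Nat.eq_zero_or_pos a with rfl | ha
    · rw [Nat.mul_zero]
      by_contra hcon
      obtain ⟨v, hv⟩ : X.Nonempty := Finset.card_pos.1 (by omega)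
      have := hX {v} (Finset.singleton_subset_iff.2 hv) (indep_singleton v)
      simp at this
    · by_contra hcon
      exact step_two ha hm hm4 hC (fun a' ha' Y hY => ih a' ha' (by omega) Y hY) X hX (by omega)

/-- The final form. -/
theorem final_two {V : Type*} [Fintype V] (m n : ℕ) (hn : 3 ≤ n) (hm4 : 4 ≤ m) (hm : 2 * n ≤ m + 2)
    (G : SimpleGraph V) (hcard : (m - 1) * (n - 1) + 1 ≤ Fintype.card V) :
    (∃ s : Finset V, s.card = n ∧ G.IsIndepSet (s : Set V)) ∨
      ∃ (v : V) (w : G.Walk v v), w.IsCycle ∧ w.length = m := by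
  classical
  by_contra hcon
  push Not at hcon
  obtain ⟨h1, h2⟩ := hcon
  have hC : ∀ l, IsCyc G l → l.length = m → False := by
    intro l hl hlm
    obtain ⟨v, w, hw, hwl⟩ := walk_of_cyc hl
    exact h2 v w hw (hwl.trans hlm)
  have hB : Bound G (Finset.univ : Finset V) (n - 1) := by
    intro I _ hI
    by_contra hlt
    obtain ⟨s, hs, hsc⟩ := Finset.exists_subset_card_eq (show n ≤ I.card by omega)
    exact h1 s hsc (hI.mono (by exact_mod_cast hs))
  have := main_bound_two hm4 hC (n - 1) (by omega) Finset.univ hB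
  rw [Finset.card_univ] at this
  omega

end Vale.Agent.Lib.P048S
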